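import Mathlib

/-!
# P043: cube clusters in `ℝ^d` and tilings by translations, definitions
-/

namespace Vale.Agent.Lib.P043.helper14

open MeasureTheory

/-- The integer part of a vector of `ℝ^d`, coordinate by coordinate. -/
noncomputable def fl {d : ℕ} (y : Fin d → ℝ) : Fin d → ℤ := fun i => ⌊y i⌋

/-- The inclusion of `ℤ^d` in `ℝ^d`. -/
def emb {d : ℕ} (n : Fin d → ℤ) : Fin d → ℝ := fun i => (n i : ℝ)

/-- The cube cluster `F + [0,1)^d`: the points of `ℝ^d` whose integer part lies in `F`. -/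
def cluster {d : ℕ} (F : Finset (Fin d → ℤ)) : Set (Fin d → ℝ) := {y | fl y ∈ F}

/-- `Ω` tiles `ℝ^d` by translations with translation set `A`: the translates `Ω + a`, `a ∈ A`,
cover `ℝ^d` up to a null set and pairwise intersect in null sets. -/
def TilesBy {d : ℕ} (Ω A : Set (Fin d → ℝ)) : Prop :=
  volume ((⋃ a ∈ A, {x | x - a ∈ Ω})ᶜ) = 0 ∧
  ∀ a ∈ A, ∀ a' ∈ A, a ≠ a' → volume ({x | x - a ∈ Ω} ∩ {x | x - a' ∈ Ω}) = 0

/-- `A` is invariant under a lattice of rank `d`, here a subgroup of finite index of `ℤ^d`. -/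
def LatticePeriodic {d : ℕ} (A : Set (Fin d → ℝ)) : Prop :=
  ∃ H : AddSubgroup (Fin d → ℤ), H.FiniteIndex ∧ ∀ h ∈ H, ∀ a : Fin d → ℝ, a + emb h ∈ A ↔ a ∈ A

end Vale.Agent.Lib.P043.helper14
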