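import Mathlib

/-!
# P043: translational tilings of abelian groups, definitions
-/

namespace Vale.Agent.Lib.P043.helper14

variable {G : Type*} [AddCommGroup G]

/-- `A ⊕ F = G`: every element of `G` is `a + f` for exactly one pair `(a, f)` with `a ∈ A`,
`f ∈ F`. -/
def IsTiling (A : Set G) (F : Finset G) : Prop :=
  ∀ g : G, ∃! q : G × G, q.1 ∈ A ∧ q.2 ∈ F ∧ q.1 + q.2 = g

/-- `A` covers `G` exactly `k` times by the translates of `F`: every element `g` of `G` has
exactly `k` representations `g = a + f` with `a ∈ A`, `f ∈ F` (counted by the `f ∈ F` with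
`g - f ∈ A`). -/
def IsLevelTiling (k : ℕ) (A : Set G) (F : Finset G) : Prop :=
  ∀ g : G, {f : G | f ∈ F ∧ g - f ∈ A}.ncard = k

/-- `A` is periodic: `A + h = A` for every `h` in some subgroup of finite index. -/
def IsPeriodic (A : Set G) : Prop :=
  ∃ H : AddSubgroup G, H.FiniteIndex ∧ ∀ h ∈ H, ∀ a : G, a + h ∈ A ↔ a ∈ A

end Vale.Agent.Lib.P043.helper14
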