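import Mathlib

/-!
# P043: tilings by a set of prime cardinality, the counting step

For a finite subset `F` of an abelian group `G` with `p = F.card` prime and a set `A` such that
every element of `G` has the same number `k` of representations `a + f`, the number of `f ∈ F`
with `x - p • f ∈ A` is divisible by `p`, for every `x`.  The proof uses the translation
operators on functions `G → ZMod p` and the identity `(∑ τ_f) ^ p = ∑ τ_(p f)` in
characteristic `p`.
-/

namespace Vale.Agent.Lib.P043.helper14

open Finset

variable {G : Type*} [AddCommGroup G]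

/-- The translation operator `φ ↦ (x ↦ φ (x - g))` on functions `G → ZMod p`. -/
def tr (p : ℕ) (g : G) : Module.End (ZMod p) (G → ZMod p) where
  toFun φ := fun x => φ (x - g)
  map_add' _ _ := rfl
  map_smul' _ _ := rfl

theorem tr_apply (p : ℕ) (g : G) (φ : G → ZMod p) (x : G) : tr p g φ x = φ (x - g) := rfl

theorem tr_mul (p : ℕ) (g h : G) : tr p g * tr p h = tr p (g + h) := by
  refine LinearMap.ext fun φ => funext fun x => ?_
  rw [Module.End.mul_apply, tr_apply, tr_apply, tr_apply, sub_sub]

theorem tr_zero (p : ℕ) : tr p (0 : G) = 1 := by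
  refine LinearMap.ext fun φ => funext fun x => ?_
  rw [tr_apply, sub_zero, Module.End.one_apply]

theorem tr_pow (p : ℕ) (g : G) (n : ℕ) : tr p g ^ n = tr p (n • g) := by
  induction n with
  | zero => rw [pow_zero, zero_smul, tr_zero]
  | succ n ih => rw [pow_succ, ih, tr_mul, succ_nsmul]

theorem tr_commute (p : ℕ) (g h : G) : Commute (tr p g) (tr p h) := by
  unfold Commute SemiconjBy
  rw [tr_mul, tr_mul, add_comm]

theorem frobenius (p : ℕ) [Fact p.Prime] (S : Finset G) :
    (∑ f ∈ S, tr p f) ^ p = ∑ f ∈ S, tr p (p • f) := by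
  classical
  have : CharP (Module.End (ZMod p) (G → ZMod p)) p :=
    charP_of_injective_algebraMap (R := ZMod p)
      (algebraMap (ZMod p) (Module.End (ZMod p) (G → ZMod p))).injective p
  induction S using Finset.induction_on with
  | empty =>
    rw [Finset.sum_empty, Finset.sum_empty]
    exact zero_pow (Fact.out : p.Prime).ne_zero
  | insert a S ha ih =>
    rw [Finset.sum_insert ha, Finset.sum_insert ha,
      add_pow_char_of_commute p (Commute.sum_right _ _ _ fun f _ => tr_commute p a f), ih, tr_pow]

theorem sum_tr_apply (p : ℕ) (S : Finset G) (c : G → G) (φ : G → ZMod p) (x : G) :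
    (∑ f ∈ S, tr p (c f)) φ x = ∑ f ∈ S, φ (x - c f) := by
  rw [LinearMap.sum_apply, Finset.sum_apply]
  rfl

/-- The counting step: if every element of `G` has exactly `k` representations `a + f` with
`a ∈ A`, `f ∈ F`, and `F.card` is prime, then the number of `f ∈ F` with `x - F.card • f ∈ A` is
divisible by `F.card`. -/
theorem card_dvd (F : Finset G) (A : Set G) (k : ℕ) (hp : F.card.Prime)
    (hA : ∀ g : G, {f : G | f ∈ F ∧ g - f ∈ A}.ncard = k) (x : G) :
    F.card ∣ {f : G | f ∈ F ∧ x - F.card • f ∈ A}.ncard := by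
  classical
  have : Fact (F.card).Prime := ⟨hp⟩
  set p := F.card with hpdef
  let φ : G → ZMod p := fun y => if y ∈ A then 1 else 0
  have hcount : ∀ (c : G → G) (y : G), (∑ f ∈ F, tr p (c f)) φ y
      = (({f : G | f ∈ F ∧ y - c f ∈ A}.ncard : ℕ) : ZMod p) := by
    intro c y
    rw [sum_tr_apply]
    have : {f : G | f ∈ F ∧ y - c f ∈ A} = ↑(F.filter (fun f => y - c f ∈ A)) := by
      ext f; simp
    rw [this, Set.ncard_coe_finset, Finset.card_filter, Nat.cast_sum]
    refine Finset.sum_congr rfl fun f _ => ?_
    by_cases h : y - c f ∈ A <;> simp [φ, h]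
  have h1 : (∑ f ∈ F, tr p f) φ = fun _ => (k : ZMod p) := by
    funext y
    have := hcount id y
    simp only [id] at this
    rw [this, hA y]
  have h2 : ∀ c : ZMod p, (∑ f ∈ F, tr p f) (fun _ => c) = 0 := by
    intro c
    funext y
    rw [sum_tr_apply]
    simp only [Finset.sum_const, Pi.zero_apply, nsmul_eq_mul]
    rw [← hpdef, ZMod.natCast_self, zero_mul]
  have h3' : ∀ m : ℕ, ((∑ f ∈ F, tr p f) ^ (m + 2)) φ = 0 := by
    intro m
    rw [pow_succ, pow_succ, Module.End.mul_apply, Module.End.mul_apply, h1, h2, map_zero]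
  have h3 : ((∑ f ∈ F, tr p f) ^ p) φ = 0 := by
    have h := h3' (p - 2)
    have e : p - 2 + 2 = p := by have := hp.two_le; omega
    rwa [e] at h
  have h4 := hcount (fun f => p • f) x
  rw [← frobenius p F, h3] at h4
  exact (ZMod.natCast_eq_zero_iff _ _).mp h4.symm

end Vale.Agent.Lib.P043.helper14
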