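import Mathlib
import Vale.Agent.Lib.P043.helper14.Defs
import Vale.Agent.Lib.P043.helper14.Frob

/-!
# P043: tilings by a set of prime cardinality

* `level_invariant`: a set `A` covering an abelian group exactly `k` times by the translates of a
  set `F` of prime cardinality `p` is invariant under `p • (f - f')` for all `f f' ∈ F`.
* `exists_periodic`: in a finitely generated abelian group, a set of prime cardinality that tiles
  has a periodic tiling.
-/

namespace Vale.Agent.Lib.P043.helper14

variable {G : Type*} [AddCommGroup G]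

theorem level_step (F : Finset G) (A : Set G) (k : ℕ) (hp : F.card.Prime)
    (hA : IsLevelTiling k A F) {f f' : G} (hf : f ∈ F) (hf' : f' ∈ F) (a : G) (ha : a ∈ A) :
    a + F.card • (f - f') ∈ A := by
  classical
  have hd := card_dvd F A k hp hA (a + F.card • f)
  set S : Set G := {g : G | g ∈ F ∧ a + F.card • f - F.card • g ∈ A} with hS
  have hSF : S ⊆ (↑F : Set G) := fun g hg => hg.1
  have hfS : f ∈ S := ⟨hf, by rw [add_sub_cancel_right]; exact ha⟩
  have hfin : S.Finite := F.finite_toSet.subset hSF
  have hpos : 0 < S.ncard := (Set.ncard_pos hfin).mpr ⟨f, hfS⟩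
  have hle : S.ncard ≤ F.card := by
    have := Set.ncard_le_ncard hSF F.finite_toSet
    rwa [Set.ncard_coe_finset] at this
  have heq : S.ncard = F.card := le_antisymm hle (Nat.le_of_dvd hpos hd)
  have hSeq : S = (↑F : Set G) :=
    Set.eq_of_subset_of_ncard_le hSF (by rw [Set.ncard_coe_finset, heq]) F.finite_toSet
  have hmem : f' ∈ S := by rw [hSeq]; exact hf'
  have h2 := hmem.2
  rwa [add_sub_assoc, ← smul_sub] at h2

/-- A set `A` covering `G` exactly `k` times by the translates of a set `F` of prime cardinality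
`p` satisfies `A + p • (f - f') = A` for all `f f' ∈ F`. -/
theorem level_invariant (F : Finset G) (A : Set G) (k : ℕ) (hp : F.card.Prime)
    (hA : IsLevelTiling k A F) {f f' : G} (hf : f ∈ F) (hf' : f' ∈ F) (a : G) :
    a + F.card • (f - f') ∈ A ↔ a ∈ A := by
  constructor
  · intro h
    have := level_step F A k hp hA hf' hf _ h
    have e : a + F.card • (f - f') + F.card • (f' - f) = a := by
      rw [add_assoc, ← smul_add, sub_add_sub_cancel, sub_self, smul_zero, add_zero]
    rwa [e] at this
  · exact level_step F A k hp hA hf hf' a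

theorem level_one {A : Set G} {F : Finset G} (h : IsTiling A F) : IsLevelTiling 1 A F := by
  intro g
  obtain ⟨q, ⟨hq1, hq2, hq3⟩, huniq⟩ := h g
  have : {f : G | f ∈ F ∧ g - f ∈ A} = {q.2} := by
    ext f
    constructor
    · rintro ⟨hf, hgf⟩
      have := huniq (g - f, f) ⟨hgf, hf, sub_add_cancel g f⟩
      exact Set.mem_singleton_iff.mpr (congrArg Prod.snd this)
    · intro hf
      rw [Set.mem_singleton_iff] at hf
      subst hf
      refine ⟨hq2, ?_⟩
      have e : g - q.2 = q.1 := by rw [← hq3, add_sub_cancel_right]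
      rw [e]; exact hq1
  rw [this, Set.ncard_singleton]

/-- The subgroup generated by the elements `p • (f - f')`, `f f' ∈ F`, `p = F.card`. -/
def perGroup (F : Finset G) : AddSubgroup G :=
  AddSubgroup.closure {x | ∃ f ∈ F, ∃ f' ∈ F, x = F.card • (f - f')}

/-- The subgroup generated by the differences `f - f'`, `f f' ∈ F`. -/
def diffGroup (F : Finset G) : AddSubgroup G :=
  AddSubgroup.closure {x | ∃ f ∈ F, ∃ f' ∈ F, x = f - f'}

theorem perGroup_invariant (F : Finset G) (A : Set G) (k : ℕ) (hp : F.card.Prime)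
    (hA : IsLevelTiling k A F) : ∀ h ∈ perGroup F, ∀ a : G, a + h ∈ A ↔ a ∈ A := by
  intro h hh
  refine AddSubgroup.closure_induction (p := fun h _ => ∀ a : G, a + h ∈ A ↔ a ∈ A)
    ?_ ?_ ?_ ?_ hh
  · rintro x ⟨f, hf, f', hf', rfl⟩ a
    exact level_invariant F A k hp hA hf hf' a
  · intro a; rw [add_zero]
  · intro x y _ _ hx hy a
    rw [← add_assoc, hy, hx]
  · intro x _ hx a
    rw [← hx (a + -x), neg_add_cancel_right]

theorem perGroup_le (F : Finset G) : perGroup F ≤ diffGroup F := by
  unfold perGroup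
  rw [AddSubgroup.closure_le]
  rintro x ⟨f, hf, f', hf', rfl⟩
  have hmem : f - f' ∈ diffGroup F := AddSubgroup.subset_closure ⟨f, hf, f', hf', rfl⟩
  exact nsmul_mem hmem _

theorem smul_mem_perGroup (F : Finset G) : ∀ l ∈ diffGroup F, F.card • l ∈ perGroup F := by
  intro l hl
  refine AddSubgroup.closure_induction (p := fun l _ => F.card • l ∈ perGroup F) ?_ ?_ ?_ ?_ hl
  · rintro x ⟨f, hf, f', hf', rfl⟩
    exact AddSubgroup.subset_closure ⟨f, hf, f', hf', rfl⟩
  · rw [smul_zero]; exact zero_mem _
  · intro x y _ _ hx hy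
    rw [smul_add]; exact add_mem hx hy
  · intro x _ hx
    rw [smul_neg]; exact neg_mem hx

/-- A subgroup `K` of a finitely generated abelian group such that every element has a positive
multiple in `K` has finite index. -/
theorem finiteIndex_of_multiples [AddGroup.FG G] (K : AddSubgroup G)
    (h : ∀ x : G, ∃ n : ℕ, 0 < n ∧ n • x ∈ K) : K.FiniteIndex := by
  have htors : IsAddTorsion (G ⧸ K) := by
    intro q
    induction q using QuotientAddGroup.induction_on with
    | H x =>
      obtain ⟨n, hn, hx⟩ := h x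
      rw [isOfFinAddOrder_iff_nsmul_eq_zero]
      refine ⟨n, hn, ?_⟩
      rw [← QuotientAddGroup.mk_nsmul, QuotientAddGroup.eq_zero_iff]
      exact hx
  have : Finite (G ⧸ K) := AddCommGroup.finite_of_fg_isAddTorsion _ htors
  exact AddSubgroup.finiteIndex_of_finite_quotient

/-- A maximal subgroup meeting a given subgroup `L` trivially. -/
theorem exists_maximal_disjoint (L : AddSubgroup G) :
    ∃ M : AddSubgroup G, M ⊓ L = ⊥ ∧ ∀ M' : AddSubgroup G, M' ⊓ L = ⊥ → M ≤ M' → M' ≤ M := by
  obtain ⟨M, hM⟩ := zorn_le₀ {M : AddSubgroup G | M ⊓ L = ⊥} (by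
    intro c hc hchain
    rcases c.eq_empty_or_nonempty with rfl | hne
    · exact ⟨⊥, bot_inf_eq L, fun z hz => absurd hz (Set.notMem_empty z)⟩
    · refine ⟨sSup c, ?_, fun z hz => le_sSup hz⟩
      show sSup c ⊓ L = ⊥
      rw [AddSubgroup.eq_bot_iff_forall]
      intro x hx
      obtain ⟨hx1, hx2⟩ := AddSubgroup.mem_inf.mp hx
      obtain ⟨M, hMc, hxM⟩ := (AddSubgroup.mem_sSup_of_directedOn hne hchain.directedOn).mp hx1
      have hML : M ⊓ L = ⊥ := hc hMc
      have : x ∈ M ⊓ L := AddSubgroup.mem_inf.mpr ⟨hxM, hx2⟩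
      rw [hML] at this
      exact AddSubgroup.mem_bot.mp this)
  exact ⟨M, hM.1, fun M' hM' hle => hM.2 hM' hle⟩

/-- In a finitely generated abelian group, a set of prime cardinality that tiles has a periodic
tiling. -/
theorem exists_periodic [AddGroup.FG G] (F : Finset G) (hp : F.card.Prime)
    (h : ∃ A : Set G, IsTiling A F) : ∃ A : Set G, IsTiling A F ∧ IsPeriodic A := by
  classical
  obtain ⟨A, hA⟩ := h
  have hlev := level_one hA
  have hinv := perGroup_invariant F A 1 hp hlev
  obtain ⟨f0, hf0⟩ : ∃ f0, f0 ∈ F := Finset.card_pos.mp hp.pos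
  set L := diffGroup F with hL
  set P := perGroup F with hP
  obtain ⟨M, hML, hMmax⟩ := exists_maximal_disjoint L
  have hdiff : ∀ f ∈ F, ∀ f' ∈ F, f - f' ∈ L := fun f hf f' hf' =>
    AddSubgroup.subset_closure ⟨f, hf, f', hf', rfl⟩
  -- elements of `M ⊓ L` vanish
  have hzero : ∀ x, x ∈ M → x ∈ L → x = 0 := by
    intro x hxM hxL
    have : x ∈ M ⊓ L := AddSubgroup.mem_inf.mpr ⟨hxM, hxL⟩
    rw [hML] at this
    exact AddSubgroup.mem_bot.mp this
  -- the new set of translations
  let A' : Set G := {y | ∃ q : G ⧸ (L ⊔ M), ∃ m ∈ M, ∃ a ∈ A, a + f0 ∈ L ∧ y = q.out + m + a}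
  refine ⟨A', ?_, P ⊔ M, ?_, ?_⟩
  · -- `A'` is a tiling
    intro g
    set q : G ⧸ (L ⊔ M) := QuotientAddGroup.mk g with hq
    have hz : -q.out + g ∈ L ⊔ M := by
      rw [← QuotientAddGroup.eq, QuotientAddGroup.out_eq']
    obtain ⟨l, hl, m, hm, hlm⟩ := AddSubgroup.mem_sup.mp hz
    obtain ⟨⟨a, f⟩, ⟨ha, hf, haf⟩, huniq⟩ := hA l
    simp only at ha hf haf
    have haL : a + f0 ∈ L := by
      have e : a + f0 = l - (f - f0) := by rw [← haf]; abel
      rw [e]
      exact sub_mem hl (hdiff f hf f0 hf0)
    refine ⟨(q.out + m + a, f), ⟨⟨q, m, hm, a, ha, haL, rfl⟩, hf, ?_⟩, ?_⟩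
    · show q.out + m + a + f = g
      have e : g = q.out + (l + m) := by rw [hlm]; abel
      rw [e, ← haf]; abel
    · rintro ⟨a2', f2⟩ ⟨⟨q2, m2, hm2, a2, ha2, ha2L, rfl⟩, hf2, hsum⟩
      simp only at hf2 hsum
      -- the coset of `q2.out` is the coset of `g`
      have hsumL : a2 + f2 ∈ L := by
        have e : a2 + f2 = (a2 + f0) + (f2 - f0) := by abel
        rw [e]
        exact add_mem ha2L (hdiff f2 hf2 f0 hf0)
      have hq2 : q2 = q := by
        have h1 : (QuotientAddGroup.mk q2.out : G ⧸ (L ⊔ M)) = QuotientAddGroup.mk g := by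
          rw [QuotientAddGroup.eq]
          have e : -q2.out + g = (a2 + f2) + m2 := by rw [← hsum]; abel
          rw [e]
          exact AddSubgroup.mem_sup.mpr ⟨_, hsumL, _, hm2, rfl⟩
        rw [QuotientAddGroup.out_eq'] at h1
        exact h1
      subst hq2
      have hafL : a + f ∈ L := by rw [haf]; exact hl
      have hmm : m2 - m ∈ L := by
        have e : m2 - m = (a + f) - (a2 + f2) := by
          have e1 : a2 + f2 = (-q.out + g) - m2 := by rw [← hsum]; abel
          rw [e1, ← hlm, haf]; abel
        rw [e]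
        exact sub_mem hafL hsumL
      have hm0 : m2 - m = 0 := hzero _ (sub_mem hm2 hm) hmm
      have hm2eq : m2 = m := sub_eq_zero.mp hm0
      subst hm2eq
      have hpair : a2 + f2 = l := by
        have e1 : a2 + f2 = (-q.out + g) - m2 := by rw [← hsum]; abel
        rw [e1, ← hlm]; abel
      have := huniq (a2, f2) ⟨ha2, hf2, hpair⟩
      have h1 : a2 = a := congrArg Prod.fst this
      have h2 : f2 = f := congrArg Prod.snd this
      rw [h1, h2]
  · -- the period group has finite index
    refine finiteIndex_of_multiples (P ⊔ M) ?_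
    intro x
    by_cases hx : x ∈ M
    · exact ⟨1, Nat.one_pos, by rw [one_smul]; exact AddSubgroup.mem_sup_right hx⟩
    · have hnot : ¬ ((M ⊔ AddSubgroup.zmultiples x) ⊓ L = ⊥) := by
        intro hbot
        have := hMmax _ hbot le_sup_left
        exact hx (this (AddSubgroup.mem_sup_right (AddSubgroup.mem_zmultiples x)))
      rcases AddSubgroup.bot_or_exists_ne_zero ((M ⊔ AddSubgroup.zmultiples x) ⊓ L) with hb | ⟨y, hy, hy0⟩
      · exact absurd hb hnot
      · obtain ⟨hy1, hy2⟩ := AddSubgroup.mem_inf.mp hy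
        obtain ⟨m, hm, z, hzm, hmz⟩ := AddSubgroup.mem_sup.mp hy1
        obtain ⟨j, hj⟩ := AddSubgroup.mem_zmultiples_iff.mp hzm
        have hj0 : j ≠ 0 := by
          rintro rfl
          rw [zero_smul] at hj
          rw [← hj, add_zero] at hmz
          rw [← hmz] at hy2 hy0
          exact hy0 (hzero m hm hy2)
        -- `F.card • (j • x)` lies in `P ⊔ M`
        have hpy : F.card • y ∈ P := smul_mem_perGroup F y hy2
        have hpz : F.card • z ∈ P ⊔ M := by
          have e : F.card • z = F.card • y + -(F.card • m) := by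
            rw [← hmz, smul_add]; abel
          rw [e]
          exact AddSubgroup.mem_sup.mpr ⟨_, hpy, _, neg_mem (nsmul_mem hm _), rfl⟩
        have hnat : F.card • (j.natAbs • x) ∈ P ⊔ M := by
          rcases Int.natAbs_eq j with hjj | hjj
          · have e : j.natAbs • x = z := by
              rw [← hj]; conv_rhs => rw [hjj]
              rw [natCast_zsmul]
            rw [e]; exact hpz
          · have e : j.natAbs • x = -z := by
              rw [← hj]; conv_rhs => rw [hjj]
              rw [neg_smul, natCast_zsmul, neg_neg]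
            rw [e, smul_neg]; exact neg_mem hpz
        refine ⟨F.card * j.natAbs, Nat.mul_pos hp.pos (Int.natAbs_pos.mpr hj0), ?_⟩
        rw [mul_nsmul']
        exact hnat
  · -- invariance
    have hstep : ∀ h ∈ P ⊔ M, ∀ y ∈ A', y + h ∈ A' := by
      rintro h hh y ⟨q, m, hm, a, ha, haL, rfl⟩
      obtain ⟨h1, hh1, h2, hh2, rfl⟩ := AddSubgroup.mem_sup.mp hh
      refine ⟨q, m + h2, add_mem hm hh2, a + h1, (hinv h1 hh1 a).mpr ha, ?_, by abel⟩
      have e : a + h1 + f0 = (a + f0) + h1 := by abel
      rw [e]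
      exact add_mem haL (perGroup_le F hh1)
    intro h hh y
    constructor
    · intro hy
      have := hstep (-h) (neg_mem hh) _ hy
      rwa [add_neg_cancel_right] at this
    · exact hstep h hh y

theorem tiling_of_level_one {A : Set G} {F : Finset G} (h : IsLevelTiling 1 A F) :
    IsTiling A F := by
  intro g
  obtain ⟨f1, hf1⟩ := Set.ncard_eq_one.mp (h g)
  have hmem : f1 ∈ {f : G | f ∈ F ∧ g - f ∈ A} := by rw [hf1]; exact Set.mem_singleton f1
  refine ⟨(g - f1, f1), ⟨hmem.2, hmem.1, sub_add_cancel g f1⟩, ?_⟩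
  rintro ⟨a, f⟩ ⟨ha, hf, haf⟩
  simp only at ha hf haf
  have hfS : f ∈ {f : G | f ∈ F ∧ g - f ∈ A} := by
    refine ⟨hf, ?_⟩
    have e : g - f = a := by rw [← haf, add_sub_cancel_right]
    rw [e]; exact ha
  rw [hf1] at hfS
  have hff : f = f1 := Set.mem_singleton_iff.mp hfS
  subst hff
  have e : a = g - f := by rw [← haf, add_sub_cancel_right]
  rw [e]

theorem tiling_iff_level_one (A : Set G) (F : Finset G) : IsTiling A F ↔ IsLevelTiling 1 A F :=
  ⟨level_one, tiling_of_level_one⟩

/-- If the differences of a set `F` of prime cardinality generate a subgroup of finite index of a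
finitely generated abelian group, every set covering the group exactly `k` times by the translates
of `F` is periodic. -/
theorem periodic_of_finiteIndex [AddGroup.FG G] (k : ℕ) (F : Finset G) (A : Set G)
    (hp : F.card.Prime)
    (hfi : (AddSubgroup.closure {x | ∃ f ∈ F, ∃ f' ∈ F, x = f - f'}).FiniteIndex)
    (hA : IsLevelTiling k A F) : IsPeriodic A := by
  refine ⟨perGroup F, ?_, perGroup_invariant F A k hp hA⟩
  refine finiteIndex_of_multiples _ ?_
  intro x
  have hfi' : (diffGroup F).FiniteIndex := hfi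
  obtain ⟨n, hn, -, hx⟩ := AddSubgroup.exists_nsmul_mem_of_index_ne_zero hfi'.index_ne_zero x
  refine ⟨F.card * n, Nat.mul_pos hp.pos hn, ?_⟩
  rw [mul_nsmul']
  exact smul_mem_perGroup F _ hx

/-- In a finitely generated abelian group, if a set `F` of prime cardinality admits a covering of
level `k` (every element has exactly `k` representations `a + f`), it admits a periodic one. -/
theorem exists_periodic_level [AddGroup.FG G] (k : ℕ) (F : Finset G) (hp : F.card.Prime)
    (h : ∃ A : Set G, IsLevelTiling k A F) : ∃ A : Set G, IsLevelTiling k A F ∧ IsPeriodic A := by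
  classical
  obtain ⟨A, hA⟩ := h
  have hinv := perGroup_invariant F A k hp hA
  obtain ⟨f0, hf0⟩ : ∃ f0, f0 ∈ F := Finset.card_pos.mp hp.pos
  set L := diffGroup F with hL
  set P := perGroup F with hP
  obtain ⟨M, hML, hMmax⟩ := exists_maximal_disjoint L
  have hdiff : ∀ f ∈ F, ∀ f' ∈ F, f - f' ∈ L := fun f hf f' hf' =>
    AddSubgroup.subset_closure ⟨f, hf, f', hf', rfl⟩
  have hzero : ∀ x, x ∈ M → x ∈ L → x = 0 := by
    intro x hxM hxL
    have : x ∈ M ⊓ L := AddSubgroup.mem_inf.mpr ⟨hxM, hxL⟩
    rw [hML] at this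
    exact AddSubgroup.mem_bot.mp this
  let A' : Set G := {y | ∃ q : G ⧸ (L ⊔ M), ∃ m ∈ M, ∃ a ∈ A, a + f0 ∈ L ∧ y = q.out + m + a}
  refine ⟨A', ?_, P ⊔ M, ?_, ?_⟩
  · -- `A'` has level `k`
    intro g
    set q : G ⧸ (L ⊔ M) := QuotientAddGroup.mk g with hq
    have hz : -q.out + g ∈ L ⊔ M := by
      rw [← QuotientAddGroup.eq, QuotientAddGroup.out_eq']
    obtain ⟨l, hl, m, hm, hlm⟩ := AddSubgroup.mem_sup.mp hz
    have hset : {f : G | f ∈ F ∧ g - f ∈ A'} = {f : G | f ∈ F ∧ l - f ∈ A} := by
      ext f
      constructor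
      · rintro ⟨hf, q2, m2, hm2, a2, ha2, ha2L, hsum⟩
        refine ⟨hf, ?_⟩
        have hsumL : a2 + f ∈ L := by
          have e : a2 + f = (a2 + f0) + (f - f0) := by abel
          rw [e]
          exact add_mem ha2L (hdiff f hf f0 hf0)
        have hg : g = q2.out + m2 + a2 + f := by rw [← hsum]; abel
        have hq2 : q2 = q := by
          have h1 : (QuotientAddGroup.mk q2.out : G ⧸ (L ⊔ M)) = QuotientAddGroup.mk g := by
            rw [QuotientAddGroup.eq]
            have e : -q2.out + g = (a2 + f) + m2 := by rw [hg]; abel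
            rw [e]
            exact AddSubgroup.mem_sup.mpr ⟨_, hsumL, _, hm2, rfl⟩
          rw [QuotientAddGroup.out_eq'] at h1
          exact h1
        subst hq2
        have e1 : a2 + f = (-q.out + g) - m2 := by
          have e0 : -q.out + g = m2 + (a2 + f) := by
            conv_lhs => rw [hg]
            abel
          rw [e0]; abel
        have hmm : m2 - m ∈ L := by
          have e : m2 - m = l - (a2 + f) := by rw [e1, ← hlm]; abel
          rw [e]
          exact sub_mem hl hsumL
        have hm2eq : m2 = m := sub_eq_zero.mp (hzero _ (sub_mem hm2 hm) hmm)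
        subst hm2eq
        have hpair : a2 + f = l := by rw [e1, ← hlm]; abel
        have e2 : l - f = a2 := by rw [← hpair]; abel
        show l - f ∈ A
        rw [e2]; exact ha2
      · rintro ⟨hf, hlf⟩
        refine ⟨hf, q, m, hm, l - f, hlf, ?_, ?_⟩
        · have e : l - f + f0 = l - (f - f0) := by abel
          rw [e]
          exact sub_mem hl (hdiff f hf f0 hf0)
        · have e : g = q.out + (l + m) := by rw [hlm]; abel
          rw [e]; abel
    rw [hset]
    exact hA l
  · -- the period group has finite index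
    refine finiteIndex_of_multiples (P ⊔ M) ?_
    intro x
    by_cases hx : x ∈ M
    · exact ⟨1, Nat.one_pos, by rw [one_smul]; exact AddSubgroup.mem_sup_right hx⟩
    · have hnot : ¬ ((M ⊔ AddSubgroup.zmultiples x) ⊓ L = ⊥) := by
        intro hbot
        have := hMmax _ hbot le_sup_left
        exact hx (this (AddSubgroup.mem_sup_right (AddSubgroup.mem_zmultiples x)))
      rcases AddSubgroup.bot_or_exists_ne_zero ((M ⊔ AddSubgroup.zmultiples x) ⊓ L) with hb | ⟨y, hy, hy0⟩
      · exact absurd hb hnot
      · obtain ⟨hy1, hy2⟩ := AddSubgroup.mem_inf.mp hy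
        obtain ⟨m, hm, z, hzm, hmz⟩ := AddSubgroup.mem_sup.mp hy1
        obtain ⟨j, hj⟩ := AddSubgroup.mem_zmultiples_iff.mp hzm
        have hj0 : j ≠ 0 := by
          rintro rfl
          rw [zero_smul] at hj
          rw [← hj, add_zero] at hmz
          rw [← hmz] at hy2 hy0
          exact hy0 (hzero m hm hy2)
        -- `F.card • (j • x)` lies in `P ⊔ M`
        have hpy : F.card • y ∈ P := smul_mem_perGroup F y hy2
        have hpz : F.card • z ∈ P ⊔ M := by
          have e : F.card • z = F.card • y + -(F.card • m) := by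
            rw [← hmz, smul_add]; abel
          rw [e]
          exact AddSubgroup.mem_sup.mpr ⟨_, hpy, _, neg_mem (nsmul_mem hm _), rfl⟩
        have hnat : F.card • (j.natAbs • x) ∈ P ⊔ M := by
          rcases Int.natAbs_eq j with hjj | hjj
          · have e : j.natAbs • x = z := by
              rw [← hj]; conv_rhs => rw [hjj]
              rw [natCast_zsmul]
            rw [e]; exact hpz
          · have e : j.natAbs • x = -z := by
              rw [← hj]; conv_rhs => rw [hjj]
              rw [neg_smul, natCast_zsmul, neg_neg]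
            rw [e, smul_neg]; exact neg_mem hpz
        refine ⟨F.card * j.natAbs, Nat.mul_pos hp.pos (Int.natAbs_pos.mpr hj0), ?_⟩
        rw [mul_nsmul']
        exact hnat
  · -- invariance
    have hstep : ∀ h ∈ P ⊔ M, ∀ y ∈ A', y + h ∈ A' := by
      rintro h hh y ⟨q, m, hm, a, ha, haL, rfl⟩
      obtain ⟨h1, hh1, h2, hh2, rfl⟩ := AddSubgroup.mem_sup.mp hh
      refine ⟨q, m + h2, add_mem hm hh2, a + h1, (hinv h1 hh1 a).mpr ha, ?_, by abel⟩
      have e : a + h1 + f0 = (a + f0) + h1 := by abel
      rw [e]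
      exact add_mem haL (perGroup_le F hh1)
    intro h hh y
    constructor
    · intro hy
      have := hstep (-h) (neg_mem hh) _ hy
      rwa [add_neg_cancel_right] at this
    · exact hstep h hh y

/-- In a finitely generated abelian group, a set of prime cardinality that tiles has a periodic
tiling (the case `k = 1` of `exists_periodic_level`). -/
theorem exists_periodic' [AddGroup.FG G] (F : Finset G) (hp : F.card.Prime)
    (h : ∃ A : Set G, IsTiling A F) : ∃ A : Set G, IsTiling A F ∧ IsPeriodic A := by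
  obtain ⟨A, hA⟩ := h
  obtain ⟨A', hA', hper⟩ := exists_periodic_level 1 F hp ⟨A, level_one hA⟩
  exact ⟨A', tiling_of_level_one hA', hper⟩

end Vale.Agent.Lib.P043.helper14
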