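import Mathlib
import Vale.Agent.Lib.P043.helper14.Prime
import Vale.Agent.Lib.P043.helper14.CubeDefs

/-!
# P043: cube clusters of prime cardinality

If the cube cluster `F + [0,1)^d` tiles `ℝ^d` by translations, then `F` tiles `ℤ^d`; hence, when
`F.card` is prime, the cluster has a periodic tiling.
-/

namespace Vale.Agent.Lib.P043.helper14

open MeasureTheory

variable {d : ℕ}

theorem fl_add_emb (y : Fin d → ℝ) (n : Fin d → ℤ) : fl (y + emb n) = fl y + n := by
  funext i
  simp only [fl, emb, Pi.add_apply]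
  exact Int.floor_add_intCast _ _

theorem fl_sub_emb (y : Fin d → ℝ) (n : Fin d → ℤ) : fl (y - emb n) = fl y - n := by
  funext i
  simp only [fl, emb, Pi.sub_apply]
  exact Int.floor_sub_intCast _ _

theorem emb_injective : Function.Injective (emb (d := d)) := by
  intro m n h
  funext i
  have := congrFun h i
  simp only [emb] at this
  exact_mod_cast this

theorem emb_add (m n : Fin d → ℤ) : emb (m + n) = emb m + emb n := by
  funext i; simp [emb]

theorem emb_sub (m n : Fin d → ℤ) : emb (m - n) = emb m - emb n := by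
  funext i; simp [emb]

theorem measurable_fl : Measurable (fl (d := d)) :=
  measurable_pi_iff.mpr fun i => Int.measurable_floor.comp (measurable_pi_apply i)

theorem measurableSet_cluster (F : Finset (Fin d → ℤ)) : MeasurableSet (cluster F) :=
  measurable_fl (F.measurableSet)

theorem measurableSet_translate (F : Finset (Fin d → ℤ)) (a : Fin d → ℝ) :
    MeasurableSet {x : Fin d → ℝ | x - a ∈ cluster F} :=
  (measurable_id.sub_const a) (measurableSet_cluster F)

theorem translate_pos (F : Finset (Fin d → ℤ)) (hF : F.Nonempty) (a : Fin d → ℝ) :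
    0 < volume {x : Fin d → ℝ | x - a ∈ cluster F} := by
  obtain ⟨f, hf⟩ := hF
  let U : Set (Fin d → ℝ) := ⋂ i : Fin d, {x | (f i : ℝ) < x i - a i ∧ x i - a i < f i + 1}
  have hUopen : IsOpen U := by
    refine isOpen_iInter_of_finite fun i => ?_
    have h1 : IsOpen {x : Fin d → ℝ | (f i : ℝ) < x i - a i} :=
      isOpen_lt continuous_const ((continuous_apply i).sub continuous_const)
    have h2 : IsOpen {x : Fin d → ℝ | x i - a i < f i + 1} :=
      isOpen_lt ((continuous_apply i).sub continuous_const) continuous_const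
    exact h1.inter h2
  have hUne : U.Nonempty := by
    refine ⟨fun i => a i + f i + 1 / 2, ?_⟩
    simp only [U, Set.mem_iInter]
    intro i
    constructor
    · show (f i : ℝ) < a i + f i + 1 / 2 - a i
      linarith
    · show a i + f i + 1 / 2 - a i < f i + 1
      linarith
  have hsub : U ⊆ {x : Fin d → ℝ | x - a ∈ cluster F} := by
    intro x hx
    simp only [U, Set.mem_iInter] at hx
    show fl (x - a) ∈ F
    have : fl (x - a) = f := by
      funext i
      simp only [fl, Pi.sub_apply]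
      rw [Int.floor_eq_iff]
      exact ⟨(hx i).1.le, (hx i).2⟩
    rw [this]; exact hf
  exact lt_of_lt_of_le (hUopen.measure_pos volume hUne) (measure_mono hsub)

/-- A tiling of `ℝ^d` by a cube cluster covers almost every point exactly once. -/
theorem ae_unique (F : Finset (Fin d → ℤ)) (hF : F.Nonempty) (A : Set (Fin d → ℝ))
    (hA : TilesBy (cluster F) A) :
    ∀ᵐ x : Fin d → ℝ, ∃! a, a ∈ A ∧ x - a ∈ cluster F := by
  obtain ⟨hcov, hdisj⟩ := hA
  have hcount : A.Countable := by
    have h := Measure.countable_meas_pos_of_disjoint_iUnion₀ (μ := (volume : Measure (Fin d → ℝ)))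
      (As := fun a : A => {x : Fin d → ℝ | x - (a : Fin d → ℝ) ∈ cluster F})
      (fun a => (measurableSet_translate F a).nullMeasurableSet)
      (by
        intro a a' hne
        exact hdisj a a.2 a' a'.2 (fun h => hne (Subtype.ext h)))
    have huniv : {a : A | 0 < volume {x : Fin d → ℝ | x - (a : Fin d → ℝ) ∈ cluster F}}
        = Set.univ := by
      ext a
      simp only [Set.mem_univ, iff_true]
      exact translate_pos F hF a
    rw [huniv, Set.countable_univ_iff] at h
    exact Set.countable_coe_iff.mp h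
  have h1 : ∀ᵐ x : Fin d → ℝ, x ∈ ⋃ a ∈ A, {x : Fin d → ℝ | x - a ∈ cluster F} := by
    have := measure_eq_zero_iff_ae_notMem.mp hcov
    filter_upwards [this] with x hx
    exact not_not.mp hx
  have h2 : ∀ᵐ x : Fin d → ℝ, ∀ a ∈ A, ∀ a' ∈ A, a ≠ a' →
      ¬ (x - a ∈ cluster F ∧ x - a' ∈ cluster F) := by
    rw [ae_ball_iff hcount]
    intro a ha
    rw [ae_ball_iff hcount]
    intro a' ha'
    by_cases hne : a = a'
    · exact Filter.Eventually.of_forall fun x h => absurd hne h
    · have := measure_eq_zero_iff_ae_notMem.mp (hdisj a ha a' ha' hne)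
      filter_upwards [this] with x hx _
      exact hx
  filter_upwards [h1, h2] with x hx1 hx2
  obtain ⟨a, ha, hxa⟩ := Set.mem_iUnion₂.mp hx1
  refine ⟨a, ⟨ha, hxa⟩, ?_⟩
  rintro a' ⟨ha', hxa'⟩
  by_contra hne
  exact hx2 a ha a' ha' (fun h => hne h.symm) ⟨hxa, hxa'⟩

/-- If the cube cluster of `F` tiles `ℝ^d` by translations, then `F` tiles `ℤ^d`. -/
theorem tiles_int_of_tiles_real (F : Finset (Fin d → ℤ)) (hF : F.Nonempty)
    (h : ∃ A : Set (Fin d → ℝ), TilesBy (cluster F) A) :
    ∃ A0 : Set (Fin d → ℤ), IsTiling A0 F := by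
  obtain ⟨A, hA⟩ := h
  have hae := ae_unique F hF A hA
  have hall : ∀ᵐ x : Fin d → ℝ, ∀ n : Fin d → ℤ,
      ∃! a, a ∈ A ∧ (x + emb n) - a ∈ cluster F := by
    rw [ae_all_iff]
    intro n
    exact (measurePreserving_add_right volume (emb n)).quasiMeasurePreserving.ae hae
  obtain ⟨x0, hx0⟩ := hall.exists
  refine ⟨{z | ∃ a ∈ A, z = -fl (x0 - a)}, ?_⟩
  intro g
  obtain ⟨a, ⟨ha, hga⟩, huniq⟩ := hx0 g
  have key : ∀ a' : Fin d → ℝ, x0 + emb g - a' ∈ cluster F ↔ fl (x0 - a') + g ∈ F := by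
    intro a'
    have e : x0 + emb g - a' = (x0 - a') + emb g := by abel
    show fl (x0 + emb g - a') ∈ F ↔ _
    rw [e, fl_add_emb]
  refine ⟨(-fl (x0 - a), fl (x0 - a) + g), ⟨⟨a, ha, rfl⟩, (key a).mp hga,
    neg_add_cancel_left _ _⟩, ?_⟩
  rintro ⟨z, f⟩ ⟨⟨a', ha', rfl⟩, hf, hsum⟩
  simp only at hf hsum
  have hf' : f = fl (x0 - a') + g := by rw [← hsum]; abel
  have haa : a' = a := huniq a' ⟨ha', (key a').mpr (hf' ▸ hf)⟩
  subst haa
  rw [hf']

/-- A cube cluster of prime cardinality that tiles `ℝ^d` by translations has a tiling that is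
exact at every point and invariant under a subgroup of finite index of `ℤ^d`. -/
theorem cluster_periodic (F : Finset (Fin d → ℤ)) (hp : F.card.Prime)
    (h : ∃ A : Set (Fin d → ℝ), TilesBy (cluster F) A) :
    ∃ B : Set (Fin d → ℝ), TilesBy (cluster F) B ∧
      (∀ y : Fin d → ℝ, ∃! b, b ∈ B ∧ y - b ∈ cluster F) ∧ LatticePeriodic B := by
  have hF : F.Nonempty := Finset.card_pos.mp hp.pos
  have hfg : AddGroup.FG (Fin d → ℤ) := Module.Finite.iff_addGroup_fg.mp inferInstance
  obtain ⟨B0, hB0, H, hH, hinv⟩ := exists_periodic F hp (tiles_int_of_tiles_real F hF h)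
  have hexact : ∀ y : Fin d → ℝ, ∃! b, b ∈ emb '' B0 ∧ y - b ∈ cluster F := by
    intro y
    obtain ⟨⟨b0, f⟩, ⟨hb0, hf, hsum⟩, huniq⟩ := hB0 (fl y)
    simp only at hb0 hf hsum
    refine ⟨emb b0, ⟨⟨b0, hb0, rfl⟩, ?_⟩, ?_⟩
    · show fl (y - emb b0) ∈ F
      rw [fl_sub_emb, ← hsum, add_sub_cancel_left]
      exact hf
    · rintro b ⟨⟨b1, hb1, rfl⟩, hb⟩
      have hb' : fl y - b1 ∈ F := by
        have : fl (y - emb b1) ∈ F := hb
        rwa [fl_sub_emb] at this
      have := huniq (b1, fl y - b1) ⟨hb1, hb', add_sub_cancel _ _⟩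
      have h1 : b1 = b0 := congrArg Prod.fst this
      rw [h1]
  refine ⟨emb '' B0, ⟨?_, ?_⟩, hexact, H, hH, ?_⟩
  · have : (⋃ a ∈ emb '' B0, {x : Fin d → ℝ | x - a ∈ cluster F}) = Set.univ := by
      ext y
      simp only [Set.mem_univ, iff_true]
      obtain ⟨b, ⟨hb, hyb⟩, -⟩ := hexact y
      exact Set.mem_iUnion₂.mpr ⟨b, hb, hyb⟩
    rw [this, Set.compl_univ, measure_empty]
  · intro a ha a' ha' hne
    have : {x : Fin d → ℝ | x - a ∈ cluster F} ∩ {x | x - a' ∈ cluster F} = ∅ := by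
      ext y
      simp only [Set.mem_inter_iff, Set.mem_empty_iff_false, iff_false]
      rintro ⟨h1, h2⟩
      obtain ⟨b, -, huniq⟩ := hexact y
      exact hne ((huniq a ⟨ha, h1⟩).trans (huniq a' ⟨ha', h2⟩).symm)
    rw [this, measure_empty]
  · intro h hh b
    constructor
    · rintro ⟨b1, hb1, hb⟩
      refine ⟨b1 - h, ?_, ?_⟩
      · have := (hinv h hh (b1 - h)).mp (by rw [sub_add_cancel]; exact hb1)
        exact this
      · rw [emb_sub, hb, add_sub_cancel_right]
    · rintro ⟨b0, hb0, rfl⟩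
      exact ⟨b0 + h, (hinv h hh b0).mpr hb0, emb_add b0 h⟩

/-- If `F` tiles `ℤ^d`, its cube cluster tiles `ℝ^d` (with the same translations). -/
theorem tiles_real_of_tiles_int (F : Finset (Fin d → ℤ))
    (h : ∃ A0 : Set (Fin d → ℤ), IsTiling A0 F) :
    ∃ A : Set (Fin d → ℝ), TilesBy (cluster F) A := by
  obtain ⟨B0, hB0⟩ := h
  have hexact : ∀ y : Fin d → ℝ, ∃! b, b ∈ emb '' B0 ∧ y - b ∈ cluster F := by
    intro y
    obtain ⟨⟨b0, f⟩, ⟨hb0, hf, hsum⟩, huniq⟩ := hB0 (fl y)
    simp only at hb0 hf hsum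
    refine ⟨emb b0, ⟨⟨b0, hb0, rfl⟩, ?_⟩, ?_⟩
    · show fl (y - emb b0) ∈ F
      rw [fl_sub_emb, ← hsum, add_sub_cancel_left]
      exact hf
    · rintro b ⟨⟨b1, hb1, rfl⟩, hb⟩
      have hb' : fl y - b1 ∈ F := by
        have : fl (y - emb b1) ∈ F := hb
        rwa [fl_sub_emb] at this
      have := huniq (b1, fl y - b1) ⟨hb1, hb', add_sub_cancel _ _⟩
      have h1 : b1 = b0 := congrArg Prod.fst this
      rw [h1]
  refine ⟨emb '' B0, ?_, ?_⟩
  · have : (⋃ a ∈ emb '' B0, {x : Fin d → ℝ | x - a ∈ cluster F}) = Set.univ := by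
      ext y
      simp only [Set.mem_univ, iff_true]
      obtain ⟨b, ⟨hb, hyb⟩, -⟩ := hexact y
      exact Set.mem_iUnion₂.mpr ⟨b, hb, hyb⟩
    rw [this, Set.compl_univ, measure_empty]
  · intro a ha a' ha' hne
    have : {x : Fin d → ℝ | x - a ∈ cluster F} ∩ {x | x - a' ∈ cluster F} = ∅ := by
      ext y
      simp only [Set.mem_inter_iff, Set.mem_empty_iff_false, iff_false]
      rintro ⟨h1, h2⟩
      obtain ⟨b, -, huniq⟩ := hexact y
      exact hne ((huniq a ⟨ha, h1⟩).trans (huniq a' ⟨ha', h2⟩).symm)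
    rw [this, measure_empty]

end Vale.Agent.Lib.P043.helper14
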